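import Mathlib

/-!
A smooth profile `H` with `(t H')' ≥ 0` for `t ≥ 1 / B`.
-/

open Set Filter Topology MeasureTheory

namespace Vale.Agent.P159.T1.D.H207

/-- minus the derivative of the profile -/
noncomputable def qq (B ρ0 t : ℝ) : ℝ := expNegInvGlue (ρ0 - t) * Real.exp (-(B * t))

theorem qq_contDiff (B ρ0 : ℝ) {n : ℕ∞} : ContDiff ℝ n (qq B ρ0) := by
  unfold qq
  exact (expNegInvGlue.contDiff.comp (contDiff_const.sub contDiff_id)).mul
    (Real.contDiff_exp.comp (contDiff_const.mul contDiff_id).neg)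

theorem qq_cont (B ρ0 : ℝ) : Continuous (qq B ρ0) := (qq_contDiff B ρ0 (n := 0)).continuous

theorem qq_nonneg (B ρ0 t : ℝ) : 0 ≤ qq B ρ0 t :=
  mul_nonneg (expNegInvGlue.nonneg _) (Real.exp_pos _).le

theorem qq_pos {B ρ0 t : ℝ} (h : t < ρ0) : 0 < qq B ρ0 t :=
  mul_pos (expNegInvGlue.pos_of_pos (by linarith)) (Real.exp_pos _)

theorem qq_zero {B ρ0 t : ℝ} (h : ρ0 ≤ t) : qq B ρ0 t = 0 := by
  unfold qq
  rw [expNegInvGlue.zero_of_nonpos (by linarith), zero_mul]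

theorem qq_le_one {B ρ0 t : ℝ} (hB : 0 ≤ B) (ht : 0 ≤ t) : qq B ρ0 t ≤ 1 := by
  unfold qq
  have h1 : expNegInvGlue (ρ0 - t) ≤ 1 := by
    unfold expNegInvGlue
    split_ifs with h
    · norm_num
    · push Not at h
      rw [Real.exp_le_one_iff]
      have := inv_pos.2 h
      linarith
  have h2 : Real.exp (-(B * t)) ≤ 1 := by
    rw [Real.exp_le_one_iff]
    have := mul_nonneg hB ht
    linarith
  calc _ ≤ 1 * 1 := mul_le_mul h1 h2 (Real.exp_pos _).le zero_le_one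
    _ = 1 := one_mul 1

theorem qq_deriv_le (B ρ0 t : ℝ) : deriv (qq B ρ0) t ≤ -(B * qq B ρ0 t) := by
  have hg : HasDerivAt expNegInvGlue (deriv expNegInvGlue (ρ0 - t)) (ρ0 - t) :=
    ((expNegInvGlue.contDiff (n := 1)).differentiable (by norm_num)).differentiableAt.hasDerivAt
  have h1 : HasDerivAt (fun t => expNegInvGlue (ρ0 - t)) (-(deriv expNegInvGlue (ρ0 - t))) t := by
    have h0 : HasDerivAt (fun t => ρ0 - t) (-1) t := by
      simpa using (hasDerivAt_id t).const_sub ρ0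
    have := HasDerivAt.comp t hg h0
    simpa [Function.comp_def] using this
  have h2 : HasDerivAt (fun t => Real.exp (-(B * t))) (Real.exp (-(B * t)) * (-B)) t := by
    have := ((hasDerivAt_id t).const_mul B).neg.exp
    simpa using this
  have h3 := h1.mul h2
  have h4 : deriv (qq B ρ0) t = -(deriv expNegInvGlue (ρ0 - t)) * Real.exp (-(B * t)) +
      expNegInvGlue (ρ0 - t) * (Real.exp (-(B * t)) * (-B)) := h3.deriv
  have h5 : 0 ≤ deriv expNegInvGlue (ρ0 - t) := expNegInvGlue.monotone.deriv_nonneg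
  have h6 := Real.exp_pos (-(B * t))
  rw [h4]
  unfold qq
  nlinarith [mul_nonneg h5 h6.le]

/-- `(t q)' ≤ q` for `t ≥ 0`, and `≤ 0` for `B t ≥ 1` -/
theorem qq_le {B ρ0 t : ℝ} (ht : 0 ≤ t) :
    qq B ρ0 t + t * deriv (qq B ρ0) t ≤ qq B ρ0 t * (1 - B * t) := by
  nlinarith [mul_le_mul_of_nonneg_left (qq_deriv_le B ρ0 t) ht]

/-- the profile -/
noncomputable def HH (B ρ0 r : ℝ) : ℝ := ∫ t in r..ρ0, qq B ρ0 t

theorem HH_hasDerivAt (B ρ0 r : ℝ) : HasDerivAt (HH B ρ0) (-(qq B ρ0 r)) r :=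
  intervalIntegral.integral_hasDerivAt_left ((qq_cont B ρ0).intervalIntegrable _ _)
    (qq_cont B ρ0).stronglyMeasurable.stronglyMeasurableAtFilter (qq_cont B ρ0).continuousAt

theorem HH_deriv (B ρ0 : ℝ) : deriv (HH B ρ0) = fun r => -(qq B ρ0 r) :=
  funext fun r => (HH_hasDerivAt B ρ0 r).deriv

theorem HH_contDiff (B ρ0 : ℝ) : ContDiff ℝ (⊤ : ℕ∞) (HH B ρ0) := by
  rw [contDiff_infty_iff_deriv]
  refine ⟨fun r => (HH_hasDerivAt B ρ0 r).differentiableAt, ?_⟩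
  rw [HH_deriv]
  exact (qq_contDiff B ρ0).neg

theorem HH_zero {B ρ0 r : ℝ} (h : ρ0 ≤ r) : HH B ρ0 r = 0 := by
  unfold HH
  rw [intervalIntegral.integral_symm]
  rw [intervalIntegral.integral_congr (g := fun _ => (0 : ℝ)) ?_]
  · simp
  · intro t ht
    rw [uIcc_of_le h] at ht
    exact qq_zero ht.1

theorem HH_pos {B ρ0 r : ℝ} (h : r < ρ0) : 0 < HH B ρ0 r :=
  intervalIntegral.intervalIntegral_pos_of_pos_on ((qq_cont B ρ0).intervalIntegrable _ _)
    (fun _ ht => qq_pos ht.2) h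

theorem HH_nonneg (B ρ0 r : ℝ) : 0 ≤ HH B ρ0 r := by
  rcases lt_or_ge r ρ0 with h | h
  · exact (HH_pos h).le
  · exact (HH_zero h).ge

end Vale.Agent.P159.T1.D.H207
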