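import Vale.Agent.P159.T1.D.H207.Prof

/-!
An explicit test function in the quadrant: `v = k H(|f|²)`, `f(w) = (w² - c)/(w² - c̄)`, `c = z₀²`.
-/

open Set Filter Topology MeasureTheory Complex

namespace Vale.Agent.P159.T1.D.H207

/-- the point of `ℂ` -/
def io (p : ℝ × ℝ) : ℂ := ⟨p.1, p.2⟩

theorem io_eq (p : ℝ × ℝ) : io p = Complex.equivRealProdCLM.symm p := by
  apply Complex.ext <;> simp [io]

theorem io_cont : Continuous io := by
  have : io = Complex.equivRealProdCLM.symm := funext io_eq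
  rw [this]; exact Complex.equivRealProdCLM.symm.continuous

/-- conformal map of the quadrant onto the disc (up to the branch) -/
noncomputable def ff (c w : ℂ) : ℂ := (w ^ 2 - c) / (w ^ 2 - (starRingEnd ℂ) c)

/-- its derivative -/
noncomputable def f1 (c w : ℂ) : ℂ := 2 * w * (c - (starRingEnd ℂ) c) / (w ^ 2 - (starRingEnd ℂ) c) ^ 2

/-- `|f|²` on the plane -/
noncomputable def rr (c : ℂ) (p : ℝ × ℝ) : ℝ := normSq (ff c (io p))

/-- the open quadrant -/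
def Qd : Set (ℝ × ℝ) := {p | 0 < p.1 ∧ 0 < p.2}

theorem Qd_open : IsOpen Qd :=
  (isOpen_lt continuous_const continuous_fst).inter (isOpen_lt continuous_const continuous_snd)

theorem sq_im (p : ℝ × ℝ) : ((io p) ^ 2).im = 2 * p.1 * p.2 := by
  simp [io, pow_two]; ring

theorem sq_re (p : ℝ × ℝ) : ((io p) ^ 2).re = p.1 ^ 2 - p.2 ^ 2 := by
  simp [io, pow_two]

/-- the denominator does not vanish in the closed quadrant -/
theorem den_ne {c : ℂ} (hc : 0 < c.im) {p : ℝ × ℝ} (h1 : 0 ≤ p.1) (h2 : 0 ≤ p.2) :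
    (io p) ^ 2 - (starRingEnd ℂ) c ≠ 0 := by
  intro h
  have h3 := congrArg Complex.im h
  rw [Complex.sub_im, sq_im, Complex.conj_im, Complex.zero_im] at h3
  nlinarith [mul_nonneg h1 h2]

theorem one_sub_rr {c : ℂ} {p : ℝ × ℝ} (h : (io p) ^ 2 - (starRingEnd ℂ) c ≠ 0) :
    1 - rr c p = 8 * c.im * (p.1 * p.2) / normSq ((io p) ^ 2 - (starRingEnd ℂ) c) := by
  have h0 : normSq ((io p) ^ 2 - (starRingEnd ℂ) c) ≠ 0 := by
    rwa [Ne, Complex.normSq_eq_zero]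
  unfold rr ff
  rw [Complex.normSq_div, eq_div_iff h0, sub_mul, div_mul_cancel₀ _ h0, one_mul]
  rw [Complex.normSq_apply, Complex.normSq_apply]
  simp only [Complex.sub_re, Complex.sub_im, Complex.conj_re, Complex.conj_im, sq_re, sq_im]
  ring

theorem rr_nonneg (c : ℂ) (p : ℝ × ℝ) : 0 ≤ rr c p := Complex.normSq_nonneg _

theorem rr_lt_one {c : ℂ} (hc : 0 < c.im) {p : ℝ × ℝ} (h : p ∈ Qd) : rr c p < 1 := by
  have h1 := den_ne hc h.1.le h.2.le
  have h2 := one_sub_rr h1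
  have h3 : 0 < 8 * c.im * (p.1 * p.2) / normSq ((io p) ^ 2 - (starRingEnd ℂ) c) :=
    div_pos (by have := mul_pos h.1 h.2; positivity) (Complex.normSq_pos.2 h1)
  linarith

theorem rr_axis {c : ℂ} (hc : 0 < c.im) {p : ℝ × ℝ} (h1 : 0 ≤ p.1) (h2 : 0 ≤ p.2)
    (h : p ∉ Qd) : rr c p = 1 := by
  have h3 := one_sub_rr (den_ne hc h1 h2)
  have h4 : p.1 * p.2 = 0 := by
    by_contra h5
    apply h
    rcases h1.lt_or_eq with h6 | h6
    · rcases h2.lt_or_eq with h7 | h7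
      · exact ⟨h6, h7⟩
      · exact absurd (by rw [← h7]; ring) h5
    · exact absurd (by rw [← h6]; ring) h5
  rw [h4] at h3
  simp at h3
  linarith

theorem ff_hasDerivAt {c w : ℂ} (h : w ^ 2 - (starRingEnd ℂ) c ≠ 0) :
    HasDerivAt (ff c) (f1 c w) w := by
  have h1 : HasDerivAt (fun w : ℂ => w ^ 2 - c) (2 * w) w := by
    simpa using (hasDerivAt_pow 2 w).sub_const c
  have h2 : HasDerivAt (fun w : ℂ => w ^ 2 - (starRingEnd ℂ) c) (2 * w) w := by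
    simpa using (hasDerivAt_pow 2 w).sub_const ((starRingEnd ℂ) c)
  have h3 := h1.div h2 h
  refine h3.congr_deriv ?_
  unfold f1
  congr 1
  ring

/-- the second derivative of `f` -/
noncomputable def f2 (c w : ℂ) : ℂ := deriv (f1 c) w

theorem f1_hasDerivAt {c w : ℂ} (h : w ^ 2 - (starRingEnd ℂ) c ≠ 0) :
    HasDerivAt (f1 c) (f2 c w) w := by
  have h1 : DifferentiableAt ℂ (f1 c) w := by
    unfold f1
    have h2 : (w ^ 2 - (starRingEnd ℂ) c) ^ 2 ≠ 0 := pow_ne_zero 2 h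
    fun_prop (disch := assumption)
  exact h1.hasDerivAt

/-- real and imaginary part of an analytic function on the plane -/
theorem re_im_fderiv {g : ℂ → ℂ} {g' : ℂ} {p : ℝ × ℝ} (h : HasDerivAt g g' (io p)) :
    HasFDerivAt (fun p => (g (io p)).re) (g'.re • ContinuousLinearMap.fst ℝ ℝ ℝ -
      g'.im • ContinuousLinearMap.snd ℝ ℝ ℝ) p ∧
    HasFDerivAt (fun p => (g (io p)).im) (g'.im • ContinuousLinearMap.fst ℝ ℝ ℝ +
      g'.re • ContinuousLinearMap.snd ℝ ℝ ℝ) p := by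
  have h0 : HasFDerivAt io (Complex.equivRealProdCLM.symm : ℝ × ℝ →L[ℝ] ℂ) p := by
    have : io = Complex.equivRealProdCLM.symm := funext io_eq
    rw [this]
    exact Complex.equivRealProdCLM.symm.hasFDerivAt
  have h1 : HasFDerivAt (fun p => g (io p)) _ p := (h.complexToReal_fderiv).comp p h0
  constructor
  · have h2 := Complex.reCLM.hasFDerivAt.comp p h1
    refine HasFDerivAt.congr_fderiv h2 ?_
    ext <;> simp [Complex.equivRealProdCLM_symm_apply]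
  · have h2 := Complex.imCLM.hasFDerivAt.comp p h1
    refine HasFDerivAt.congr_fderiv h2 ?_
    ext <;> simp [Complex.equivRealProdCLM_symm_apply]

theorem rr_eq (c : ℂ) (p : ℝ × ℝ) :
    rr c p = (ff c (io p)).re ^ 2 + (ff c (io p)).im ^ 2 := by
  unfold rr
  rw [Complex.normSq_apply]
  ring

/-- `∂ₓ |f|²` -/
noncomputable def rx (c : ℂ) (p : ℝ × ℝ) : ℝ :=
  2 * ((ff c (io p)).re * (f1 c (io p)).re + (ff c (io p)).im * (f1 c (io p)).im)

/-- `∂_y |f|²` -/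
noncomputable def ry (c : ℂ) (p : ℝ × ℝ) : ℝ :=
  2 * ((ff c (io p)).im * (f1 c (io p)).re - (ff c (io p)).re * (f1 c (io p)).im)

theorem rr_hasFDerivAt {c : ℂ} {p : ℝ × ℝ} (h : (io p) ^ 2 - (starRingEnd ℂ) c ≠ 0) :
    HasFDerivAt (rr c) (rx c p • ContinuousLinearMap.fst ℝ ℝ ℝ +
      ry c p • ContinuousLinearMap.snd ℝ ℝ ℝ) p := by
  obtain ⟨h1, h2⟩ := re_im_fderiv (ff_hasDerivAt h)
  have h3 := (h1.mul h1).add (h2.mul h2)
  have h4 : rr c = fun p => (ff c (io p)).re * (ff c (io p)).re +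
      (ff c (io p)).im * (ff c (io p)).im := by
    funext p; rw [rr_eq]; ring
  rw [h4]
  refine HasFDerivAt.congr_fderiv h3 ?_
  ext <;> simp [rx, ry] <;> ring

theorem rx_x {c : ℂ} {p : ℝ × ℝ} (h : (io p) ^ 2 - (starRingEnd ℂ) c ≠ 0) :
    ∃ L : ℝ × ℝ →L[ℝ] ℝ, HasFDerivAt (rx c) L p ∧ L (1, 0) = 2 * (normSq (f1 c (io p)) +
      (ff c (io p)).re * (f2 c (io p)).re + (ff c (io p)).im * (f2 c (io p)).im) := by
  obtain ⟨h1, h2⟩ := re_im_fderiv (ff_hasDerivAt h)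
  obtain ⟨h3, h4⟩ := re_im_fderiv (f1_hasDerivAt h)
  have h5 := ((h1.mul h3).add (h2.mul h4)).const_mul 2
  refine ⟨_, h5, ?_⟩
  rw [Complex.normSq_apply]
  simp
  ring

theorem ry_y {c : ℂ} {p : ℝ × ℝ} (h : (io p) ^ 2 - (starRingEnd ℂ) c ≠ 0) :
    ∃ L : ℝ × ℝ →L[ℝ] ℝ, HasFDerivAt (ry c) L p ∧ L (0, 1) = 2 * (normSq (f1 c (io p)) -
      (ff c (io p)).re * (f2 c (io p)).re - (ff c (io p)).im * (f2 c (io p)).im) := by
  obtain ⟨h1, h2⟩ := re_im_fderiv (ff_hasDerivAt h)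
  obtain ⟨h3, h4⟩ := re_im_fderiv (f1_hasDerivAt h)
  have h5 := ((h2.mul h3).sub (h1.mul h4)).const_mul 2
  refine ⟨_, h5, ?_⟩
  rw [Complex.normSq_apply]
  simp
  ring

theorem rx_ry (c : ℂ) (p : ℝ × ℝ) :
    rx c p ^ 2 + ry c p ^ 2 = 4 * rr c p * normSq (f1 c (io p)) := by
  rw [rr_eq, Complex.normSq_apply]
  unfold rx ry
  ring

/-- the Laplacian of a function on the plane -/
noncomputable def lap (v : ℝ × ℝ → ℝ) (p : ℝ × ℝ) : ℝ :=
  fderiv ℝ (fun w => fderiv ℝ v w (1, 0)) p (1, 0) +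
    fderiv ℝ (fun w => fderiv ℝ v w (0, 1)) p (0, 1)

theorem lap_congr {v w : ℝ × ℝ → ℝ} {p : ℝ × ℝ} (h : v =ᶠ[𝓝 p] w) : lap v p = lap w p := by
  unfold lap
  have h1 : ∀ u : ℝ × ℝ, (fun q => fderiv ℝ v q u) =ᶠ[𝓝 p] fun q => fderiv ℝ w q u := by
    intro u
    filter_upwards [h.eventuallyEq_nhds] with q hq
    rw [hq.fderiv_eq]
  rw [(h1 (1, 0)).fderiv_eq, (h1 (0, 1)).fderiv_eq]

theorem lap_zero (p : ℝ × ℝ) : lap (fun _ => (0 : ℝ)) p = 0 := by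
  unfold lap
  simp

open Classical in
/-- the test function -/
noncomputable def vv (k B ρ0 : ℝ) (c : ℂ) (p : ℝ × ℝ) : ℝ :=
  if p ∈ Qd then k * HH B ρ0 (rr c p) else 0

theorem vv_eq {k B ρ0 : ℝ} {c : ℂ} {p : ℝ × ℝ} (h : p ∈ Qd) :
    vv k B ρ0 c =ᶠ[𝓝 p] fun q => k * HH B ρ0 (rr c q) := by
  filter_upwards [Qd_open.mem_nhds h] with q hq
  simp [vv, hq]

/-- the Laplacian in the quadrant -/
theorem lap_vv {k B ρ0 : ℝ} {c : ℂ} (hc : 0 < c.im) {p : ℝ × ℝ} (h : p ∈ Qd) :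
    lap (vv k B ρ0 c) p = -(4 * k * normSq (f1 c (io p)) *
      (qq B ρ0 (rr c p) + rr c p * deriv (qq B ρ0) (rr c p))) := by
  have hd : ∀ q ∈ Qd, (io q) ^ 2 - (starRingEnd ℂ) c ≠ 0 := fun q hq => den_ne hc hq.1.le hq.2.le
  have h1 : ∀ q ∈ Qd, HasFDerivAt (vv k B ρ0 c) ((-(k * qq B ρ0 (rr c q))) •
      (rx c q • ContinuousLinearMap.fst ℝ ℝ ℝ + ry c q • ContinuousLinearMap.snd ℝ ℝ ℝ)) q := by
    intro q hq
    have h2 := ((HH_hasDerivAt B ρ0 (rr c q)).comp_hasFDerivAt q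
      (rr_hasFDerivAt (hd q hq))).const_mul k
    refine (HasFDerivAt.congr_fderiv (h2.congr_of_eventuallyEq (vv_eq hq)) ?_)
    ext <;> simp <;> ring
  have h3 : (fun q => fderiv ℝ (vv k B ρ0 c) q (1, 0)) =ᶠ[𝓝 p]
      fun q => -(k * qq B ρ0 (rr c q)) * rx c q := by
    filter_upwards [Qd_open.mem_nhds h] with q hq
    rw [(h1 q hq).fderiv]
    simp
  have h4 : (fun q => fderiv ℝ (vv k B ρ0 c) q (0, 1)) =ᶠ[𝓝 p]
      fun q => -(k * qq B ρ0 (rr c q)) * ry c q := by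
    filter_upwards [Qd_open.mem_nhds h] with q hq
    rw [(h1 q hq).fderiv]
    simp
  have hq' : HasDerivAt (qq B ρ0) (deriv (qq B ρ0) (rr c p)) (rr c p) :=
    ((qq_contDiff B ρ0 (n := 1)).differentiable (by norm_num)).differentiableAt.hasDerivAt
  have h5 := (((hq'.comp_hasFDerivAt p (rr_hasFDerivAt (hd p h))).const_mul k).neg)
  obtain ⟨L1, hL1, hL1'⟩ := rx_x (hd p h)
  obtain ⟨L2, hL2, hL2'⟩ := ry_y (hd p h)
  have h6 := h5.mul hL1
  have h7 := h5.mul hL2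
  unfold lap
  rw [h3.fderiv_eq, h4.fderiv_eq]
  have h8 : fderiv ℝ (fun q => -(k * qq B ρ0 (rr c q)) * rx c q) p (1, 0) =
      -(k * qq B ρ0 (rr c p)) * L1 (1, 0) -
        k * deriv (qq B ρ0) (rr c p) * rx c p * rx c p := by
    have : fderiv ℝ (fun q => -(k * qq B ρ0 (rr c q)) * rx c q) p = _ := h6.fderiv
    rw [this]
    simp
    ring
  have h9 : fderiv ℝ (fun q => -(k * qq B ρ0 (rr c q)) * ry c q) p (0, 1) =
      -(k * qq B ρ0 (rr c p)) * L2 (0, 1) -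
        k * deriv (qq B ρ0) (rr c p) * ry c p * ry c p := by
    have : fderiv ℝ (fun q => -(k * qq B ρ0 (rr c q)) * ry c q) p = _ := h7.fderiv
    rw [this]
    simp
    ring
  rw [h8, h9, hL1', hL2']
  have h10 := rx_ry c p
  linear_combination (-(k * deriv (qq B ρ0) (rr c p))) * h10

/-! ### smoothness and support -/

theorem rr_contDiffAt {c : ℂ} {p : ℝ × ℝ} (h : (io p) ^ 2 - (starRingEnd ℂ) c ≠ 0) {n : ℕ∞} :
    ContDiffAt ℝ n (rr c) p := by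
  have h1 : rr c = fun p => normSq ((io p) ^ 2 - c) / normSq ((io p) ^ 2 - (starRingEnd ℂ) c) := by
    funext p
    rw [rr, ff, Complex.normSq_div]
  have h2 : ∀ d : ℂ, (fun p => normSq ((io p) ^ 2 - d)) =
      fun p : ℝ × ℝ => (p.1 ^ 2 - p.2 ^ 2 - d.re) ^ 2 + (2 * p.1 * p.2 - d.im) ^ 2 := by
    intro d
    funext p
    rw [Complex.normSq_apply, Complex.sub_re, Complex.sub_im, sq_re, sq_im]
    ring
  have h3 : ∀ d : ℂ, ContDiffAt ℝ n (fun p => normSq ((io p) ^ 2 - d)) p := by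
    intro d
    rw [h2]
    fun_prop
  rw [h1]
  refine (h3 c).div (h3 _) ?_
  rwa [Ne, Complex.normSq_eq_zero]

theorem vv_zero {k B ρ0 : ℝ} {c : ℂ} (hc : 0 < c.im) (h0 : ρ0 < 1) {p : ℝ × ℝ} (h : p ∉ Qd) :
    vv k B ρ0 c =ᶠ[𝓝 p] fun _ => 0 := by
  by_cases h1 : 0 ≤ p.1 ∧ 0 ≤ p.2
  · have h2 := rr_axis hc h1.1 h1.2 h
    have h3 : ContinuousAt (rr c) p :=
      (rr_contDiffAt (den_ne hc h1.1 h1.2) (n := 0)).continuousAt
    have h4 : ∀ᶠ q in 𝓝 p, ρ0 < rr c q := h3.eventually_const_lt (by rw [h2]; exact h0)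
    filter_upwards [h4] with q hq
    unfold vv
    split_ifs
    · rw [HH_zero hq.le, mul_zero]
    · rfl
  · have h2 : IsOpen {q : ℝ × ℝ | ¬ (0 ≤ q.1 ∧ 0 ≤ q.2)} :=
      (((isClosed_le continuous_const continuous_fst).inter
        (isClosed_le continuous_const continuous_snd)).isOpen_compl)
    filter_upwards [h2.mem_nhds h1] with q hq
    unfold vv
    rw [if_neg]
    exact fun h5 => hq ⟨h5.1.le, h5.2.le⟩

theorem vv_contDiff (k B : ℝ) {ρ0 : ℝ} {c : ℂ} (hc : 0 < c.im) (h0 : ρ0 < 1) {n : ℕ∞} :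
    ContDiff ℝ n (vv k B ρ0 c) := by
  rw [contDiff_iff_contDiffAt]
  intro p
  by_cases h : p ∈ Qd
  · refine ContDiffAt.congr_of_eventuallyEq ?_ (vv_eq h)
    have h1 : ContDiffAt ℝ n (HH B ρ0) (rr c p) :=
      ((HH_contDiff B ρ0).of_le (by exact_mod_cast le_top)).contDiffAt
    exact contDiffAt_const.mul (h1.comp p (rr_contDiffAt (den_ne hc h.1.le h.2.le)))
  · exact contDiffAt_const.congr_of_eventuallyEq (vv_zero hc h0 h)

theorem lap_vv_zero {k B ρ0 : ℝ} {c : ℂ} (hc : 0 < c.im) (h0 : ρ0 < 1) {p : ℝ × ℝ} (h : p ∉ Qd) :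
    lap (vv k B ρ0 c) p = 0 := by
  rw [lap_congr (vv_zero hc h0 h), lap_zero]

/-- the set which carries the test function -/
def KK (ρ0 : ℝ) (c : ℂ) : Set (ℝ × ℝ) := {p | 0 ≤ p.1 ∧ 0 ≤ p.2 ∧ rr c p ≤ ρ0}

theorem KK_sub {ρ0 : ℝ} {c : ℂ} (hc : 0 < c.im) (h0 : ρ0 < 1) : KK ρ0 c ⊆ Qd := by
  intro p hp
  by_contra h
  have := rr_axis hc hp.1 hp.2.1 h
  linarith [hp.2.2]

theorem KK_closed {ρ0 : ℝ} {c : ℂ} (hc : 0 < c.im) : IsClosed (KK ρ0 c) := by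
  have h1 : KK ρ0 c = {p | 0 ≤ p.1 ∧ 0 ≤ p.2} ∩ {p | normSq ((io p) ^ 2 - c) ≤
      ρ0 * normSq ((io p) ^ 2 - (starRingEnd ℂ) c)} := by
    ext p
    simp only [KK, mem_ofPred_eq, mem_inter_iff, and_assoc]
    refine and_congr_right fun ha => and_congr_right fun hb => ?_
    have h2 : 0 < normSq ((io p) ^ 2 - (starRingEnd ℂ) c) :=
      Complex.normSq_pos.2 (den_ne hc ha hb)
    rw [rr, ff, Complex.normSq_div, div_le_iff₀ h2]
  rw [h1]
  refine IsClosed.inter ((isClosed_le continuous_const continuous_fst).inter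
    (isClosed_le continuous_const continuous_snd)) (isClosed_le ?_ ?_)
  · exact Complex.continuous_normSq.comp ((io_cont.pow 2).sub continuous_const)
  · exact continuous_const.mul (Complex.continuous_normSq.comp
      ((io_cont.pow 2).sub continuous_const))

theorem normSq_io (p : ℝ × ℝ) : normSq (io p) = p.1 ^ 2 + p.2 ^ 2 := by
  rw [Complex.normSq_apply]; simp [io]; ring

theorem norm_io (p : ℝ × ℝ) : ‖io p‖ ^ 2 = p.1 ^ 2 + p.2 ^ 2 := by
  rw [← Complex.normSq_eq_norm_sq, normSq_io]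

theorem KK_bdd {ρ0 : ℝ} {c : ℂ} (hc : 0 < c.im) (h0 : ρ0 < 1) : ∃ M : ℝ, ∀ p ∈ KK ρ0 c,
    p.1 ^ 2 + p.2 ^ 2 ≤ M := by
  refine ⟨2 * ‖c‖ + 16 * ‖c‖ / (1 - ρ0), fun p hp => ?_⟩
  by_contra hM
  push Not at hM
  have h1 := den_ne hc hp.1 hp.2.1
  have h2 := one_sub_rr h1
  have hN : 0 < normSq ((io p) ^ 2 - (starRingEnd ℂ) c) := Complex.normSq_pos.2 h1
  set S := p.1 ^ 2 + p.2 ^ 2 with hS
  have hc0 : 0 < ‖c‖ := norm_pos_iff.2 (fun h => by rw [h] at hc; simp at hc)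
  have h3 : 0 < 1 - ρ0 := by linarith
  have h4 : 0 < 16 * ‖c‖ / (1 - ρ0) := by positivity
  have h5 : S / 2 ≤ ‖(io p) ^ 2 - (starRingEnd ℂ) c‖ := by
    have h6 := norm_sub_norm_le ((io p) ^ 2) ((starRingEnd ℂ) c)
    rw [norm_pow, norm_io, Complex.norm_conj] at h6
    linarith
  have h7 : S ^ 2 / 4 ≤ normSq ((io p) ^ 2 - (starRingEnd ℂ) c) := by
    rw [Complex.normSq_eq_norm_sq]
    nlinarith [h5, norm_nonneg c]
  have h8 : 8 * c.im * (p.1 * p.2) ≤ 4 * ‖c‖ * S := by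
    have h9 : c.im ≤ ‖c‖ := (le_abs_self _).trans (Complex.abs_im_le_norm c)
    have h10 : 2 * (p.1 * p.2) ≤ S := by nlinarith [sq_nonneg (p.1 - p.2)]
    have h11 := mul_nonneg hp.1 hp.2.1
    nlinarith
  have h12 : (1 - ρ0) * (S ^ 2 / 4) ≤ 4 * ‖c‖ * S := by
    have h13 : 1 - ρ0 ≤ 8 * c.im * (p.1 * p.2) / normSq ((io p) ^ 2 - (starRingEnd ℂ) c) := by
      rw [← h2]; linarith [hp.2.2]
    rw [le_div_iff₀ hN] at h13
    calc (1 - ρ0) * (S ^ 2 / 4) ≤ (1 - ρ0) * normSq ((io p) ^ 2 - (starRingEnd ℂ) c) :=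
          mul_le_mul_of_nonneg_left h7 h3.le
      _ ≤ _ := h13.trans h8
  have hS0 : 0 < S := by linarith
  have h14 : (1 - ρ0) * S ≤ 16 * ‖c‖ := by
    have : (1 - ρ0) * S * S ≤ 16 * ‖c‖ * S := by nlinarith
    exact le_of_mul_le_mul_right this hS0
  have h15 : S ≤ 16 * ‖c‖ / (1 - ρ0) := by
    rw [le_div_iff₀ h3]; linarith
  linarith

theorem KK_compact {ρ0 : ℝ} {c : ℂ} (hc : 0 < c.im) (h0 : ρ0 < 1) : IsCompact (KK ρ0 c) := by
  obtain ⟨M, hM⟩ := KK_bdd hc h0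
  refine Metric.isCompact_of_isClosed_isBounded (KK_closed hc) ?_
  refine (Metric.isBounded_iff_subset_closedBall (0 : ℝ × ℝ)).2 ⟨1 + M, fun p hp => ?_⟩
  have h1 := hM p hp
  have h2 : |p.1| ≤ 1 + M := by
    rw [abs_of_nonneg hp.1]; nlinarith [sq_nonneg (p.1 - 1), sq_nonneg p.2, sq_nonneg p.1]
  have h3 : |p.2| ≤ 1 + M := by
    rw [abs_of_nonneg hp.2.1]; nlinarith [sq_nonneg (p.2 - 1), sq_nonneg p.2, sq_nonneg p.1]
  rw [Metric.mem_closedBall, dist_zero_right, Prod.norm_def]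
  exact max_le h2 h3

theorem vv_tsupport {k B ρ0 : ℝ} {c : ℂ} (hc : 0 < c.im) : tsupport (vv k B ρ0 c) ⊆ KK ρ0 c := by
  refine closure_minimal (fun p hp => ?_) (KK_closed hc)
  rw [Function.mem_support] at hp
  by_cases h : p ∈ Qd
  · refine ⟨h.1.le, h.2.le, ?_⟩
    by_contra h1
    push Not at h1
    apply hp
    simp [vv, HH_zero h1.le]
  · exact absurd (by simp [vv, h]) hp

/-! ### the region of small `|f|²` -/

theorem near {z0 p : ℝ × ℝ} {s ρ1 : ℝ} (h0 : z0 ∈ Qd) (hp : p ∈ Qd)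
    (h1 : ρ1 ≤ 1 / 4) (h2 : ρ1 * (24 * (z0.1 ^ 2 + z0.2 ^ 2)) ≤ s ^ 2)
    (h : rr ((io z0) ^ 2) p < ρ1) :
    (p.1 - z0.1) ^ 2 + (p.2 - z0.2) ^ 2 ≤ s ^ 2 / 4 := by
  have hc : 0 < ((io z0) ^ 2).im := by
    rw [sq_im]; have := mul_pos h0.1 h0.2; linarith
  have hN := Complex.normSq_pos.2 (den_ne hc hp.1.le hp.2.le)
  rw [rr, ff, Complex.normSq_div, div_lt_iff₀ hN] at h
  set d := (p.1 - z0.1) ^ 2 + (p.2 - z0.2) ^ 2 with hd
  set S := p.1 ^ 2 + p.2 ^ 2 + (z0.1 ^ 2 + z0.2 ^ 2) with hS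
  have e1 : normSq ((io p) ^ 2 - (io z0) ^ 2) = d * ((p.1 + z0.1) ^ 2 + (p.2 + z0.2) ^ 2) := by
    rw [Complex.normSq_apply, Complex.sub_re, Complex.sub_im, sq_re, sq_im, sq_re, sq_im, hd]
    ring
  have e2 : normSq ((io p) ^ 2 - (starRingEnd ℂ) ((io z0) ^ 2)) ≤ S ^ 2 := by
    rw [Complex.normSq_apply, Complex.sub_re, Complex.sub_im, Complex.conj_re, Complex.conj_im,
      sq_re, sq_im, sq_re, sq_im, hS]
    nlinarith [sq_nonneg (p.1 * z0.2 - p.2 * z0.1), sq_nonneg (p.1 * z0.1 - p.2 * z0.2)]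
  have hp1 := hp.1
  have hp2 := hp.2
  have hz1 := h0.1
  have hz2 := h0.2
  have hd0 : 0 ≤ d := by rw [hd]; positivity
  have hS0 : 0 < S := by rw [hS]; positivity
  have hρ : 0 < ρ1 := by
    by_contra hρ
    push Not at hρ
    have := Complex.normSq_nonneg ((io p) ^ 2 - (io z0) ^ 2)
    nlinarith
  have e3 : d * S ≤ normSq ((io p) ^ 2 - (io z0) ^ 2) := by
    rw [e1]
    refine mul_le_mul_of_nonneg_left ?_ hd0
    rw [hS]
    nlinarith [mul_pos hp1 hz1, mul_pos hp2 hz2]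
  have e4 : d * S < ρ1 * S * S := by
    calc d * S ≤ _ := e3
      _ < _ := h
      _ ≤ ρ1 * S ^ 2 := mul_le_mul_of_nonneg_left e2 hρ.le
      _ = _ := by ring
  have e5 : d < ρ1 * S := lt_of_mul_lt_mul_right e4 hS0.le
  have e6 : S ≤ 3 * (z0.1 ^ 2 + z0.2 ^ 2) + 2 * d := by
    rw [hS, hd]
    nlinarith [sq_nonneg (p.1 - 2 * z0.1), sq_nonneg (p.2 - 2 * z0.2)]
  have e7 : d ≤ ρ1 * (3 * (z0.1 ^ 2 + z0.2 ^ 2) + 2 * d) :=
    e5.le.trans (mul_le_mul_of_nonneg_left e6 hρ.le)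
  nlinarith [mul_nonneg (sub_nonneg.2 h1) hd0]

/-- **the test function** -/
theorem exists_test {z0 : ℝ × ℝ} (h0 : z0 ∈ Qd) {s κ : ℝ} (hs : 0 < s) (hκ : 0 < κ)
    {K1 : Set (ℝ × ℝ)} (hK : IsCompact K1) (hK1 : K1 ⊆ Qd) :
    ∃ v : ℝ × ℝ → ℝ, (∀ n : ℕ∞, ContDiff ℝ n v) ∧ HasCompactSupport v ∧
      (∀ z ∈ tsupport v, 0 < z.1 ∧ 0 < z.2) ∧ (∀ z, 0 ≤ v z) ∧ (∀ z ∈ K1, 0 < v z) ∧
      ∀ z : ℝ × ℝ, -lap v z ≤
        κ * max 0 (s ^ 2 - (z.1 - z0.1) ^ 2 - (z.2 - z0.2) ^ 2) ^ 4 := by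
  set c := (io z0) ^ 2 with hcdef
  have hc : 0 < c.im := by
    rw [hcdef, sq_im]; have := mul_pos h0.1 h0.2; linarith
  obtain ⟨ρ0, hρ0, hρ1, hρK⟩ : ∃ ρ0 : ℝ, 0 < ρ0 ∧ ρ0 < 1 ∧ ∀ z ∈ K1, rr c z < ρ0 := by
    rcases K1.eq_empty_or_nonempty with hE | hE
    · exact ⟨1 / 2, by norm_num, by norm_num, by simp [hE]⟩
    · have hcont : ContinuousOn (rr c) K1 := fun z hz =>
        ((rr_contDiffAt (den_ne hc (hK1 hz).1.le (hK1 hz).2.le) (n := 0)).continuousAt).continuousWithinAt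
      obtain ⟨zm, hzm, hmax⟩ := hK.exists_isMaxOn hE hcont
      have h1 := rr_lt_one hc (hK1 hzm)
      have h2 := rr_nonneg c zm
      refine ⟨(1 + rr c zm) / 2, by linarith, by linarith, fun z hz => ?_⟩
      have h3 : rr c z ≤ rr c zm := hmax hz
      linarith
  have hz0 : 0 < z0.1 ^ 2 + z0.2 ^ 2 := by have := h0.1; positivity
  set ρ1 := min (1 / 4) (s ^ 2 / (24 * (z0.1 ^ 2 + z0.2 ^ 2))) with hρ1def
  have hρ1pos : 0 < ρ1 := lt_min (by norm_num) (by positivity)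
  have hρ1a : ρ1 ≤ 1 / 4 := min_le_left _ _
  have hρ1b : ρ1 * (24 * (z0.1 ^ 2 + z0.2 ^ 2)) ≤ s ^ 2 := by
    rw [← le_div_iff₀ (by positivity)]
    exact min_le_right _ _
  set B := 1 / ρ1 with hB
  have hBpos : 0 < B := by positivity
  obtain ⟨M, hM⟩ : ∃ M : ℝ, ∀ p ∈ KK ρ1 c, normSq (f1 c (io p)) ≤ M := by
    have hcont : ContinuousOn (fun p => normSq (f1 c (io p))) (KK ρ1 c) := by
      intro p hp
      have h1 := (f1_hasDerivAt (den_ne hc hp.1 hp.2.1)).continuousAt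
      have h2 : ContinuousAt (fun p => f1 c (io p)) p := h1.comp_of_eq io_cont.continuousAt rfl
      exact (Complex.continuous_normSq.continuousAt.comp h2).continuousWithinAt
    obtain ⟨M, hM⟩ := (KK_compact (ρ0 := ρ1) hc (by linarith)).bddAbove_image hcont
    exact ⟨M, fun p hp => hM ⟨p, hp, rfl⟩⟩
  set k := κ * (3 / 4 * s ^ 2) ^ 4 / (4 * (|M| + 1)) with hk
  have hkpos : 0 < k := by positivity
  refine ⟨vv k B ρ0 c, fun n => vv_contDiff k B hc hρ1, ?_, ?_, ?_, ?_, ?_⟩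
  · exact (KK_compact hc hρ1).of_isClosed_subset (isClosed_tsupport _) (vv_tsupport hc)
  · exact fun z hz => KK_sub hc hρ1 (vv_tsupport hc hz)
  · intro z
    unfold vv
    split_ifs
    · exact mul_nonneg hkpos.le (HH_nonneg _ _ _)
    · exact le_rfl
  · intro z hz
    simp only [vv, hK1 hz, if_true]
    exact mul_pos hkpos (HH_pos (hρK z hz))
  · intro z
    have hR : 0 ≤ κ * max 0 (s ^ 2 - (z.1 - z0.1) ^ 2 - (z.2 - z0.2) ^ 2) ^ 4 := by positivity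
    by_cases hz : z ∈ Qd
    · rw [lap_vv hc hz, neg_neg]
      have hr := rr_nonneg c z
      have h1 := qq_le (B := B) (ρ0 := ρ0) hr
      have hn := Complex.normSq_nonneg (f1 c (io z))
      by_cases h2 : rr c z < ρ1
      · have h3 := near h0 hz hρ1a hρ1b h2
        have h4 : normSq (f1 c (io z)) ≤ M := hM z ⟨hz.1.le, hz.2.le, h2.le⟩
        have h5 : qq B ρ0 (rr c z) + rr c z * deriv (qq B ρ0) (rr c z) ≤ 1 := by
          have h6 := qq_le_one (ρ0 := ρ0) hBpos.le hr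
          have h7 := qq_nonneg B ρ0 (rr c z)
          have h8 := mul_nonneg h7 (mul_nonneg hBpos.le hr)
          nlinarith
        calc 4 * k * normSq (f1 c (io z)) *
              (qq B ρ0 (rr c z) + rr c z * deriv (qq B ρ0) (rr c z)) ≤
              4 * k * normSq (f1 c (io z)) * 1 :=
              mul_le_mul_of_nonneg_left h5 (by positivity)
          _ ≤ 4 * k * (|M| + 1) := by
              rw [mul_one]
              refine mul_le_mul_of_nonneg_left ?_ (by positivity)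
              linarith [le_abs_self M]
          _ = κ * (3 / 4 * s ^ 2) ^ 4 := by
              rw [hk]
              field_simp
          _ ≤ _ := by
              refine mul_le_mul_of_nonneg_left ?_ hκ.le
              refine pow_le_pow_left₀ (by positivity) (le_max_of_le_right ?_) 4
              linarith
      · push Not at h2
        have h3 : 1 - B * rr c z ≤ 0 := by
          have : 1 ≤ B * rr c z := by
            rw [hB, one_div, inv_mul_eq_div, le_div_iff₀ hρ1pos, one_mul]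
            exact h2
          linarith
        have h4 : qq B ρ0 (rr c z) + rr c z * deriv (qq B ρ0) (rr c z) ≤ 0 :=
          h1.trans (mul_nonpos_of_nonneg_of_nonpos (qq_nonneg _ _ _) h3)
        exact (mul_nonpos_of_nonneg_of_nonpos (by positivity) h4).trans hR
    · rw [lap_vv_zero hc hρ1 hz, neg_zero]
      exact hR

end Vale.Agent.P159.T1.D.H207
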